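import Mathlib

namespace Vale.Agent.Results.P328.SelfReduction

open Finset BigOperators

variable {m n : ℕ}

/-- The finite set of contingency tables with row sums `r` and column sums `c`. -/
def Omega (r : Fin m → ℕ) (c : Fin n → ℕ) : Finset (Fin m → Fin n → ℕ) :=
  (Fintype.piFinset fun i : Fin m =>
      Fintype.piFinset fun _ : Fin n => Finset.range (r i + 1)).filter
    fun X => (∀ i, ∑ j, X i j = r i) ∧ (∀ j, ∑ i, X i j = c j)

/-- Lower one coordinate of a margin vector by `t`. -/
def lower {k : ℕ} (v : Fin k → ℕ) (a : Fin k) (t : ℕ) : Fin k → ℕ :=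
  Function.update v a (v a - t)

theorem mem_Omega (r : Fin m → ℕ) (c : Fin n → ℕ) (X : Fin m → Fin n → ℕ) :
    X ∈ Omega r c ↔ (∀ i, ∑ j, X i j = r i) ∧ (∀ j, ∑ i, X i j = c j) := by
  unfold Omega
  rw [Finset.mem_filter]
  constructor
  · exact fun h => h.2
  · intro h
    refine ⟨?_, h⟩
    rw [Fintype.mem_piFinset]
    intro i
    rw [Fintype.mem_piFinset]
    intro j
    rw [Finset.mem_range]
    have : X i j ≤ ∑ j, X i j := Finset.single_le_sum (f := fun j => X i j)
      (fun _ _ => Nat.zero_le _) (Finset.mem_univ j)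
    have h1 := h.1 i
    omega

/-- add `t` at the cell `(a,b)` -/
def bump (a : Fin m) (b : Fin n) (t : ℕ) (X : Fin m → Fin n → ℕ) : Fin m → Fin n → ℕ :=
  fun i j => X i j + if i = a ∧ j = b then t else 0

/-- remove `t` at the cell `(a,b)` -/
def unbump (a : Fin m) (b : Fin n) (t : ℕ) (X : Fin m → Fin n → ℕ) : Fin m → Fin n → ℕ :=
  fun i j => X i j - if i = a ∧ j = b then t else 0

theorem row_bump (a : Fin m) (b : Fin n) (t : ℕ) (X : Fin m → Fin n → ℕ) (i : Fin m) :
    ∑ j, bump a b t X i j = ∑ j, X i j + if i = a then t else 0 := by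
  unfold bump
  rw [Finset.sum_add_distrib]
  congr 1
  by_cases h : i = a
  · simp [h]
  · simp [h]

theorem col_bump (a : Fin m) (b : Fin n) (t : ℕ) (X : Fin m → Fin n → ℕ) (j : Fin n) :
    ∑ i, bump a b t X i j = ∑ i, X i j + if j = b then t else 0 := by
  unfold bump
  rw [Finset.sum_add_distrib]
  congr 1
  by_cases h : j = b
  · simp [h]
  · simp [h]

theorem bump_unbump (a : Fin m) (b : Fin n) (t : ℕ) (X : Fin m → Fin n → ℕ) (h : t ≤ X a b) :
    bump a b t (unbump a b t X) = X := by
  funext i j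
  unfold bump unbump
  by_cases hh : i = a ∧ j = b
  · obtain ⟨rfl, rfl⟩ := hh
    simp
    omega
  · simp [hh]

theorem unbump_bump (a : Fin m) (b : Fin n) (t : ℕ) (X : Fin m → Fin n → ℕ) :
    unbump a b t (bump a b t X) = X := by
  funext i j
  unfold bump unbump
  by_cases hh : i = a ∧ j = b
  · simp [hh]
  · simp [hh]

theorem bump_mem (r : Fin m → ℕ) (c : Fin n → ℕ) (a : Fin m) (b : Fin n) (t : ℕ)
    (hr : t ≤ r a) (hc : t ≤ c b) (X : Fin m → Fin n → ℕ)
    (hX : X ∈ Omega (lower r a t) (lower c b t)) : bump a b t X ∈ Omega r c := by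
  rw [mem_Omega] at hX ⊢
  constructor
  · intro i
    rw [row_bump, hX.1 i]
    unfold lower
    by_cases h : i = a
    · subst h
      simp
      omega
    · simp [h]
  · intro j
    rw [col_bump, hX.2 j]
    unfold lower
    by_cases h : j = b
    · subst h
      simp
      omega
    · simp [h]

theorem unbump_mem (r : Fin m → ℕ) (c : Fin n → ℕ) (a : Fin m) (b : Fin n) (t : ℕ)
    (X : Fin m → Fin n → ℕ) (hX : X ∈ Omega r c) (h : t ≤ X a b) :
    unbump a b t X ∈ Omega (lower r a t) (lower c b t) := by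
  have hb := bump_unbump a b t X h
  rw [mem_Omega] at hX ⊢
  constructor
  · intro i
    have h1 := row_bump a b t (unbump a b t X) i
    rw [hb, hX.1 i] at h1
    unfold lower
    by_cases hi : i = a
    · subst hi
      simp at h1 ⊢
      omega
    · simp [hi] at h1 ⊢
      omega
  · intro j
    have h1 := col_bump a b t (unbump a b t X) j
    rw [hb, hX.2 j] at h1
    unfold lower
    by_cases hj : j = b
    · subst hj
      simp at h1 ⊢
      omega
    · simp [hj] at h1 ⊢
      omega

/-- Tables with entry at least `t` in the cell `(a,b)` correspond to tables with lowered margins. -/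
theorem card_filter_eq (r : Fin m → ℕ) (c : Fin n → ℕ) (a : Fin m) (b : Fin n) (t : ℕ)
    (hr : t ≤ r a) (hc : t ≤ c b) :
    ((Omega r c).filter fun X => t ≤ X a b).card = (Omega (lower r a t) (lower c b t)).card := by
  apply Finset.card_bij' (fun X _ => unbump a b t X) (fun X _ => bump a b t X)
  · intro X hX
    rw [Finset.mem_filter] at hX
    exact unbump_mem r c a b t X hX.1 hX.2
  · intro X hX
    rw [Finset.mem_filter]
    refine ⟨bump_mem r c a b t hr hc X hX, ?_⟩
    unfold bump
    simp
  · intro X hX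
    rw [Finset.mem_filter] at hX
    exact bump_unbump a b t X hX.2
  · intro X _
    exact unbump_bump a b t X


theorem entry_le_row (r : Fin m → ℕ) (c : Fin n → ℕ) (X : Fin m → Fin n → ℕ)
    (hX : X ∈ Omega r c) (a : Fin m) (b : Fin n) : X a b ≤ r a := by
  rw [mem_Omega] at hX
  rw [← hX.1 a]
  exact Finset.single_le_sum (f := fun j => X a j) (fun _ _ => Nat.zero_le _) (Finset.mem_univ b)

theorem entry_le_col (r : Fin m → ℕ) (c : Fin n → ℕ) (X : Fin m → Fin n → ℕ)
    (hX : X ∈ Omega r c) (a : Fin m) (b : Fin n) : X a b ≤ c b := by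
  rw [mem_Omega] at hX
  rw [← hX.2 b]
  exact Finset.single_le_sum (f := fun i => X i b) (fun _ _ => Nat.zero_le _) (Finset.mem_univ a)

theorem row_le_total (r : Fin m → ℕ) (a : Fin m) : r a ≤ ∑ i, r i :=
  Finset.single_le_sum (f := fun i => r i) (fun _ _ => Nat.zero_le _) (Finset.mem_univ a)

/-- total mass of all cells over all tables -/
theorem total_mass (r : Fin m → ℕ) (c : Fin n → ℕ) :
    ∑ p : Fin m × Fin n, ∑ X ∈ Omega r c, X p.1 p.2 = (∑ i, r i) * (Omega r c).card := by
  rw [Finset.sum_comm]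
  have : ∀ X ∈ Omega r c, ∑ p : Fin m × Fin n, X p.1 p.2 = ∑ i, r i := by
    intro X hX
    rw [mem_Omega] at hX
    rw [Fintype.sum_prod_type]
    exact Finset.sum_congr rfl fun i _ => hX.1 i
  rw [Finset.sum_congr rfl this, Finset.sum_const, smul_eq_mul, mul_comm]

/-- One step of the self-reduction. -/
theorem step (r : Fin m → ℕ) (c : Fin n → ℕ) (hne : (Omega r c).Nonempty)
    (hN : 1 ≤ ∑ i, r i) :
    ∃ (a : Fin m) (b : Fin n) (t : ℕ), 1 ≤ t ∧ t ≤ r a ∧ t ≤ c b ∧
      (∑ i, r i) ≤ 2 * m * n * t ∧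
      (Omega r c).card ≤ 2 * m * n * ((Omega r c).filter fun X => t ≤ X a b).card := by
  classical
  set N := ∑ i, r i with hNdef
  set M := (Omega r c).card with hM
  have hMpos : 0 < M := Finset.card_pos.mpr hne
  -- the index set is nonempty
  have hidx : (Finset.univ : Finset (Fin m × Fin n)).Nonempty := by
    by_contra hcon
    rw [Finset.not_nonempty_iff_eq_empty] at hcon
    have := total_mass r c
    rw [hcon, Finset.sum_empty] at this
    have h2 : 0 < (∑ i, r i) * (Omega r c).card := Nat.mul_pos hN hMpos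
    omega
  have hcard : (Finset.univ : Finset (Fin m × Fin n)).card = m * n := by
    simp
  obtain ⟨p, -, hp⟩ := Finset.exists_le_of_sum_le (s := (Finset.univ : Finset (Fin m × Fin n)))
    (f := fun _ => N * M) (g := fun p => m * n * ∑ X ∈ Omega r c, X p.1 p.2) hidx (by
      rw [Finset.sum_const, hcard, smul_eq_mul, ← Finset.mul_sum, total_mass])
  obtain ⟨a, b⟩ := p
  simp only at hp
  have hmn : 0 < m * n := by
    rcases Nat.eq_zero_or_pos (m * n) with h | h
    · rw [h] at hp
      have h2 : 0 < N * M := Nat.mul_pos hN hMpos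
      omega
    · exact h
  set D := 2 * (m * n) with hD
  have hDpos : 0 < D := by omega
  set t := (N + D - 1) / D with ht
  have ht1 : 1 ≤ t := by
    rw [ht, Nat.le_div_iff_mul_le hDpos]
    omega
  have ht2 : N ≤ D * t := by
    have := Nat.lt_div_mul_add (a := N + D - 1) hDpos
    rw [← ht] at this
    have e : D * t = t * D := Nat.mul_comm _ _
    omega
  have ht3 : D * (t - 1) + 1 ≤ N := by
    have := Nat.div_mul_le_self (N + D - 1) D
    rw [← ht] at this
    obtain ⟨u, hu⟩ : ∃ u, t = u + 1 := ⟨t - 1, by omega⟩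
    rw [hu] at this ⊢
    simp only [Nat.add_sub_cancel]
    have e : (u + 1) * D = D * u + D := by ring
    omega
  set K := ((Omega r c).filter fun X => t ≤ X a b).card with hK
  -- the mass of the cell is at most (t-1) M + N K
  have hmass : ∑ X ∈ Omega r c, X a b ≤ (t - 1) * M + N * K := by
    have h1 : ∀ X ∈ Omega r c, X a b ≤ (t - 1) + if t ≤ X a b then N else 0 := by
      intro X hX
      by_cases h : t ≤ X a b
      · simp only [h, if_true]
        have := entry_le_row r c X hX a b
        have := row_le_total r a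
        omega
      · simp only [h, if_false]
        omega
    calc ∑ X ∈ Omega r c, X a b ≤ ∑ X ∈ Omega r c, ((t - 1) + if t ≤ X a b then N else 0) :=
          Finset.sum_le_sum h1
      _ = (t - 1) * M + N * K := by
          rw [Finset.sum_add_distrib, Finset.sum_const, smul_eq_mul, ← Finset.sum_filter,
            Finset.sum_const, smul_eq_mul]
          ring
  have hkey : M ≤ D * K := by
    have h1 : 2 * (N * M) ≤ D * ((t - 1) * M + N * K) := by
      calc 2 * (N * M) ≤ 2 * (m * n * ∑ X ∈ Omega r c, X a b) := by omega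
        _ = D * ∑ X ∈ Omega r c, X a b := by rw [hD]; ring
        _ ≤ D * ((t - 1) * M + N * K) := Nat.mul_le_mul_left _ hmass
    have h2 : D * ((t - 1) * M + N * K) = (D * (t - 1)) * M + N * (D * K) := by ring
    have h3 : (D * (t - 1)) * M ≤ N * M := Nat.mul_le_mul_right _ (by omega)
    have h4 : N * M ≤ N * (D * K) := by omega
    exact Nat.le_of_mul_le_mul_left h4 (by omega)
  have hKpos : 0 < K := by
    rcases Nat.eq_zero_or_pos K with h | h
    · rw [h] at hkey
      omega
    · exact h
  obtain ⟨X, hX⟩ := Finset.card_pos.mp hKpos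
  rw [Finset.mem_filter] at hX
  refine ⟨a, b, t, ht1, le_trans hX.2 (entry_le_row r c X hX.1 a b),
    le_trans hX.2 (entry_le_col r c X hX.1 a b), ?_, ?_⟩
  · calc N ≤ D * t := ht2
      _ = 2 * m * n * t := by rw [hD]; ring
  · calc M ≤ D * K := hkey
      _ = 2 * m * n * K := by rw [hD]; ring


theorem sum_lower {k : ℕ} (v : Fin k → ℕ) (a : Fin k) (t : ℕ) (h : t ≤ v a) :
    ∑ i, lower v a t i + t = ∑ i, v i := by
  have h1 : ∀ i, v i = lower v a t i + if i = a then t else 0 := by
    intro i
    unfold lower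
    by_cases hi : i = a
    · subst hi
      simp
      omega
    · simp [hi]
  have h2 : ∑ i, v i = ∑ i, (lower v a t i + if i = a then t else 0) :=
    Finset.sum_congr rfl fun i _ => h1 i
  rw [h2, Finset.sum_add_distrib]
  simp

theorem sum_col_eq (r : Fin m → ℕ) (c : Fin n → ℕ) (X : Fin m → Fin n → ℕ)
    (hX : X ∈ Omega r c) : ∑ j, c j = ∑ i, r i := by
  rw [mem_Omega] at hX
  calc ∑ j, c j = ∑ j, ∑ i, X i j := Finset.sum_congr rfl fun j _ => (hX.2 j).symm
    _ = ∑ i, ∑ j, X i j := Finset.sum_comm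
    _ = ∑ i, r i := Finset.sum_congr rfl fun i _ => hX.1 i

theorem eq_zero_of_sum {k : ℕ} (v : Fin k → ℕ) (h : ∑ i, v i = 0) : v = 0 := by
  funext i
  have := (Finset.sum_eq_zero_iff.mp h) i (Finset.mem_univ i)
  simpa using this

theorem card_Omega_zero : (Omega (0 : Fin m → ℕ) (0 : Fin n → ℕ)).card = 1 := by
  rw [Finset.card_eq_one]
  refine ⟨0, ?_⟩
  ext X
  rw [mem_Omega, Finset.mem_singleton]
  constructor
  · intro h
    funext i j
    have h1 := h.1 i
    simp only [Pi.zero_apply] at h1
    have := (Finset.sum_eq_zero_iff.mp h1) j (Finset.mem_univ j)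
    simpa using this
  · intro h
    subst h
    simp

/-- Existence of a table (the set of tables is nonempty as soon as the totals agree). -/
theorem nonempty_Omega : ∀ (N : ℕ) (r : Fin m → ℕ) (c : Fin n → ℕ), ∑ i, r i = N →
    ∑ j, c j = N → (Omega r c).Nonempty := by
  intro N
  induction N with
  | zero =>
    intro r c hr hc
    rw [eq_zero_of_sum r hr, eq_zero_of_sum c hc]
    exact Finset.card_pos.mp (by rw [card_Omega_zero]; exact Nat.one_pos)
  | succ N ih =>
    intro r c hr hc
    have h1 : ∃ a, 1 ≤ r a := by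
      by_contra hcon
      push Not at hcon
      have : ∑ i, r i = 0 := Finset.sum_eq_zero fun i _ => by have := hcon i; omega
      omega
    have h2 : ∃ b, 1 ≤ c b := by
      by_contra hcon
      push Not at hcon
      have : ∑ j, c j = 0 := Finset.sum_eq_zero fun j _ => by have := hcon j; omega
      omega
    obtain ⟨a, ha⟩ := h1
    obtain ⟨b, hb⟩ := h2
    have e1 := sum_lower r a 1 ha
    have e2 := sum_lower c b 1 hb
    obtain ⟨X, hX⟩ := ih (lower r a 1) (lower c b 1) (by omega) (by omega)
    exact ⟨bump a b 1 X, bump_mem r c a b 1 ha hb X hX⟩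

/-- The probability, for a uniformly random table with margins `(r,c)`, that the entry in the
cell `(a,b)` is at least `t`. -/
noncomputable def prob (r : Fin m → ℕ) (c : Fin n → ℕ) (a : Fin m) (b : Fin n) (t : ℕ) : ℝ :=
  (((Omega r c).filter fun X => t ≤ X a b).card : ℝ) / ((Omega r c).card : ℝ)

theorem chain (hm : 1 ≤ m) (hn : 1 ≤ n) : ∀ (N : ℕ) (r : Fin m → ℕ) (c : Fin n → ℕ),
    ∑ i, r i = N → (Omega r c).Nonempty →
    ∃ (k : ℕ) (R : ℕ → Fin m → ℕ) (C : ℕ → Fin n → ℕ) (a : ℕ → Fin m) (b : ℕ → Fin n)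
      (t : ℕ → ℕ),
      R 0 = r ∧ C 0 = c ∧ R k = 0 ∧ C k = 0 ∧
      (∀ s < k, 1 ≤ t s ∧ t s ≤ R s (a s) ∧ t s ≤ C s (b s) ∧
        R (s + 1) = lower (R s) (a s) (t s) ∧ C (s + 1) = lower (C s) (b s) (t s) ∧
        prob (R s) (C s) (a s) (b s) (t s) =
          ((Omega (R (s + 1)) (C (s + 1))).card : ℝ) / ((Omega (R s) (C s)).card : ℝ) ∧
        1 / (2 * (m : ℝ) * n) ≤ prob (R s) (C s) (a s) (b s) (t s)) ∧
      ((Omega r c).card : ℝ) * ∏ s ∈ Finset.range k, prob (R s) (C s) (a s) (b s) (t s) = 1 ∧
      (N = 0 → k = 0) ∧ (1 ≤ N → (k : ℝ) ≤ 2 * (m : ℝ) * n * Real.log N + 1) := by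
  intro N
  induction N using Nat.strong_induction_on with
  | _ N ih =>
    intro r c hr hne
    rcases Nat.eq_zero_or_pos N with hN0 | hNpos
    · -- all margins vanish
      subst hN0
      obtain ⟨X, hX⟩ := hne
      have hc := sum_col_eq r c X hX
      rw [hr] at hc
      have r0 := eq_zero_of_sum r hr
      have c0 := eq_zero_of_sum c hc
      refine ⟨0, fun _ => r, fun _ => c, fun _ => ⟨0, hm⟩, fun _ => ⟨0, hn⟩, fun _ => 0,
        rfl, rfl, r0, c0, ?_, ?_, fun _ => rfl, ?_⟩
      · intro s hs
        omega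
      · rw [r0, c0, card_Omega_zero]
        simp
      · intro h
        omega
    · obtain ⟨a0, b0, t0, ht1, htr, htc, hNt, hMK⟩ := step r c hne (by omega)
      have hcard := card_filter_eq r c a0 b0 t0 htr htc
      have hMpos : 0 < (Omega r c).card := Finset.card_pos.mpr hne
      have hKpos : 0 < (Omega (lower r a0 t0) (lower c b0 t0)).card := by
        rw [← hcard]
        rcases Nat.eq_zero_or_pos ((Omega r c).filter fun X => t0 ≤ X a0 b0).card with h | h
        · rw [h] at hMK
          omega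
        · exact h
      have hsum := sum_lower r a0 t0 htr
      obtain ⟨k', R', C', a', b', t', hR0, hC0, hRk, hCk, hstep, hprod, hk0, hk1⟩ :=
        ih (N - t0) (by omega) (lower r a0 t0) (lower c b0 t0) (by omega)
          (Finset.card_pos.mp hKpos)
      have hp0 : prob r c a0 b0 t0 =
          ((Omega (lower r a0 t0) (lower c b0 t0)).card : ℝ) / ((Omega r c).card : ℝ) := by
        unfold prob
        rw [hcard]
      have hmn : (0 : ℝ) < 2 * (m : ℝ) * n := by
        have h1 : (1 : ℝ) ≤ m := by exact_mod_cast hm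
        have h2 : (1 : ℝ) ≤ n := by exact_mod_cast hn
        positivity
      have hp0' : 1 / (2 * (m : ℝ) * n) ≤ prob r c a0 b0 t0 := by
        rw [hp0, div_le_div_iff₀ hmn (by exact_mod_cast hMpos)]
        rw [hcard] at hMK
        have : ((Omega r c).card : ℝ) ≤
            2 * (m : ℝ) * n * ((Omega (lower r a0 t0) (lower c b0 t0)).card : ℝ) := by
          exact_mod_cast hMK
        linarith
      refine ⟨k' + 1, fun s => if s = 0 then r else R' (s - 1),
        fun s => if s = 0 then c else C' (s - 1),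
        fun s => if s = 0 then a0 else a' (s - 1), fun s => if s = 0 then b0 else b' (s - 1),
        fun s => if s = 0 then t0 else t' (s - 1), by simp, by simp, by simpa using hRk,
        by simpa using hCk, ?_, ?_, ?_, ?_⟩
      · intro s hs
        rcases Nat.eq_zero_or_pos s with h0 | hpos
        · subst h0
          simp only [if_true, Nat.zero_add, Nat.one_ne_zero, if_false, Nat.sub_self, hR0, hC0]
          exact ⟨ht1, htr, htc, trivial, trivial, hp0, hp0'⟩
        · obtain ⟨u, rfl⟩ : ∃ u, s = u + 1 := ⟨s - 1, by omega⟩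
          have := hstep u (by omega)
          simpa using this
      · rw [Finset.prod_range_succ']
        simp only [if_true, Nat.add_one_ne_zero, if_false, Nat.add_sub_cancel]
        rw [hp0]
        have hM' : ((Omega r c).card : ℝ) ≠ 0 := by exact_mod_cast hMpos.ne'
        rw [← hprod]
        field_simp
      · intro h
        omega
      · intro _
        rcases Nat.eq_zero_or_pos (N - t0) with hz | hp
        · have := hk0 hz
          rw [this]
          have hlog : 0 ≤ Real.log N := Real.log_natCast_nonneg N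
          have : 0 ≤ 2 * (m : ℝ) * n * Real.log N := mul_nonneg hmn.le hlog
          push_cast
          linarith
        · have hk := hk1 hp
          have hNr : (0 : ℝ) < N := by exact_mod_cast hNpos
          have hN'r : (0 : ℝ) < ((N - t0 : ℕ) : ℝ) := by exact_mod_cast hp
          have hle : t0 ≤ N := by omega
          have hcast : ((N - t0 : ℕ) : ℝ) = (N : ℝ) - t0 := by
            rw [Nat.cast_sub hle]
          have hNt' : (N : ℝ) ≤ 2 * (m : ℝ) * n * t0 := by
            rw [hr] at hNt
            exact_mod_cast hNt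
          have hlog : Real.log ((N - t0 : ℕ) : ℝ) - Real.log N ≤ -(1 / (2 * (m : ℝ) * n)) := by
            rw [← Real.log_div hN'r.ne' hNr.ne']
            have h1 := Real.log_le_sub_one_of_pos (div_pos hN'r hNr)
            have h2 : ((N - t0 : ℕ) : ℝ) / N - 1 ≤ -(1 / (2 * (m : ℝ) * n)) := by
              rw [hcast]
              have : ((N : ℝ) - t0) / N - 1 = -((t0 : ℝ) / N) := by
                field_simp
                ring
              rw [this, neg_le_neg_iff, div_le_div_iff₀ hmn hNr]
              linarith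
            linarith
          have h3 : 2 * (m : ℝ) * n * (Real.log ((N - t0 : ℕ) : ℝ) - Real.log N) ≤
              2 * (m : ℝ) * n * (-(1 / (2 * (m : ℝ) * n))) :=
            mul_le_mul_of_nonneg_left hlog hmn.le
          have h4 : 2 * (m : ℝ) * n * (-(1 / (2 * (m : ℝ) * n))) = -1 := by
            field_simp
          push_cast
          nlinarith


/-- Self-reduction for contingency tables with margins of arbitrary size: the number of tables is
the reciprocal of a product of at most `2 m n log N + 1` probabilities of events `X a b ≥ t` under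
uniform tables, each of these probabilities being at least `1 / (2 m n)`. -/
theorem result (m n : ℕ) (hm : 1 ≤ m) (hn : 1 ≤ n) (r : Fin m → ℕ) (c : Fin n → ℕ)
    (h : ∑ i, r i = ∑ j, c j) :
    (∀ (r' : Fin m → ℕ) (c' : Fin n → ℕ) (X : Fin m → Fin n → ℕ),
      X ∈ Omega r' c' ↔ (∀ i, ∑ j, X i j = r' i) ∧ (∀ j, ∑ i, X i j = c' j)) ∧
    ∃ (k : ℕ) (R : ℕ → Fin m → ℕ) (C : ℕ → Fin n → ℕ) (a : ℕ → Fin m) (b : ℕ → Fin n)
      (t : ℕ → ℕ),
      R 0 = r ∧ C 0 = c ∧ R k = 0 ∧ C k = 0 ∧
      (∀ s < k, 1 ≤ t s ∧ t s ≤ R s (a s) ∧ t s ≤ C s (b s) ∧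
        R (s + 1) = lower (R s) (a s) (t s) ∧ C (s + 1) = lower (C s) (b s) (t s) ∧
        prob (R s) (C s) (a s) (b s) (t s) =
          ((Omega (R (s + 1)) (C (s + 1))).card : ℝ) / ((Omega (R s) (C s)).card : ℝ) ∧
        1 / (2 * (m : ℝ) * n) ≤ prob (R s) (C s) (a s) (b s) (t s)) ∧
      ((Omega r c).card : ℝ) * ∏ s ∈ Finset.range k, prob (R s) (C s) (a s) (b s) (t s) = 1 ∧
      (k : ℝ) ≤ 2 * (m : ℝ) * n * Real.log ((∑ i, r i : ℕ) : ℝ) + 1 := by
  refine ⟨mem_Omega, ?_⟩
  obtain ⟨k, R, C, a, b, t, h1, h2, h3, h4, h5, h6, h7, h8⟩ :=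
    chain hm hn (∑ i, r i) r c rfl (nonempty_Omega (∑ i, r i) r c rfl h.symm)
  refine ⟨k, R, C, a, b, t, h1, h2, h3, h4, h5, h6, ?_⟩
  rcases Nat.eq_zero_or_pos (∑ i, r i) with h0 | hpos
  · rw [h7 h0, h0]
    simp
  · exact h8 hpos

end Vale.Agent.Results.P328.SelfReduction
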